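import Vale.Agent.Lib.P295.Family

/-!
A family of coordinates of `ℂ[x,y,z,u]` around the Vénéreau polynomials.
With `q = z² + y u`, `T = x z + y q` (the element `r` of Vénéreau) and `t = x² u - q (T + x z)`:
for all `m, L ∈ ℂ[T,t]` and `E ∈ ℂ[x,T,t]`, the polynomial
`y + 2 x T m(T,t) - x² t m(0,t)² + x² T L(T,t) + x³ E(x,T,t)` is the image of `y` under an
automorphism of `ℂ[x,y,z,u]` fixing `x`.
-/

open MvPolynomial Vale.Agent.Lib.P295

theorem Vale.Agent.Results.P295.VenereauTypeFamily.result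
    (m L : MvPolynomial (Fin 2) ℂ) (E : MvPolynomial (Fin 3) ℂ) :
    ∃ ψ : MvPolynomial (Fin 4) ℂ ≃ₐ[ℂ] MvPolynomial (Fin 4) ℂ,
      ψ (X 0) = X 0 ∧
      ψ (X 1) = X 1 + 2 * X 0 * TS * aeval ![TS, tS] m
        - (X 0) ^ 2 * tS * (aeval ![(0 : MvPolynomial (Fin 4) ℂ), tS] m) ^ 2
        + (X 0) ^ 2 * TS * aeval ![TS, tS] L
        + (X 0) ^ 3 * aeval ![(X 0 : MvPolynomial (Fin 4) ℂ), TS, tS] E :=
  coordinate_family m L E
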